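import Mathlib

namespace Vale.Agent.P069

/-- `cof X`: the closed subspaces of finite codimension. -/
def cof (X : Type) [NormedAddCommGroup X] [NormedSpace ℝ X] : Set (Submodule ℝ X) :=
  {F | IsClosed (F : Set X) ∧ FiniteDimensional ℝ (X ⧸ F)}

variable {X : Type} [NormedAddCommGroup X] [NormedSpace ℝ X]

/-- `N` is a norm on `X` equivalent to the given one. -/
def IsEquivNorm (N : Seminorm ℝ X) : Prop :=
  ∃ c C : ℝ, 0 < c ∧ 0 < C ∧ ∀ x : X, c * ‖x‖ ≤ N x ∧ N x ≤ C * ‖x‖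

/-- The modulus of asymptotic uniform convexity of `N`. -/
noncomputable def aucModulus (N : Seminorm ℝ X) (t : ℝ) : EReal :=
  ⨅ x ∈ {x : X | N x = 1}, ⨆ F ∈ cof X, ⨅ y ∈ {y : X | y ∈ F ∧ N y = 1},
    ((N (x + t • y) - 1 : ℝ) : EReal)

/-- The modulus of asymptotic midpoint uniform convexity of `N`. -/
noncomputable def amucModulus (N : Seminorm ℝ X) (t : ℝ) : EReal :=
  ⨅ x ∈ {x : X | N x = 1}, ⨆ F ∈ cof X, ⨅ y ∈ {y : X | y ∈ F ∧ N y = 1},
    ((max (N (x + t • y)) (N (x - t • y)) - 1 : ℝ) : EReal)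

/-- `X` has an equivalent asymptotically uniformly convex norm. -/
def AUCRenormable (X : Type) [NormedAddCommGroup X] [NormedSpace ℝ X] : Prop :=
  ∃ N : Seminorm ℝ X, IsEquivNorm N ∧ ∀ t : ℝ, 0 < t → 0 < aucModulus N t

/-- `X` has an equivalent asymptotically midpoint uniformly convex norm. -/
def AMUCRenormable (X : Type) [NormedAddCommGroup X] [NormedSpace ℝ X] : Prop :=
  ∃ N : Seminorm ℝ X, IsEquivNorm N ∧ ∀ t : ℝ, 0 < t → 0 < amucModulus N t

end Vale.Agent.P069
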