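import Vale.Agent.P069.Key

/-! The dual of the James tree space over finite height trees is reflexive. -/

namespace Vale.Agent.P069

open Finset

abbrev XX : Type := StrongDual ℝ Y

lemma abs_apply_le (x : XX) (v : Y) : |x v| ≤ ‖x‖ * ‖v‖ := by
  simpa using x.le_opNorm v

lemma exists_near (x : XX) {η : ℝ} (hη : 0 < η) : ∃ u : Y, ‖u‖ ≤ 1 ∧ ‖x‖ - η ≤ x u := by
  obtain ⟨v, hv1, hv2⟩ := x.exists_lt_apply_of_lt_opNorm (r := ‖x‖ - η) (by linarith)
  rw [Real.norm_eq_abs] at hv2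
  rcases lt_abs.mp hv2 with h | h
  · exact ⟨v, hv1.le, h.le⟩
  · exact ⟨-v, by simpa using hv1.le, by simpa using h.le⟩

lemma bound_of_unit (x : XX) (P : Y → Prop) (hP : ∀ (c : ℝ) (v : Y), P v → P (c • v)) {ε : ℝ}
    (h : ∀ v, P v → ‖v‖ ≤ 1 → x v ≤ ε) (v : Y) (hv : P v) : |x v| ≤ ε * ‖v‖ := by
  by_cases h0 : v = 0
  · simp [h0]
  have hn : 0 < ‖v‖ := norm_pos_iff.mpr h0
  have h1 := h _ (hP ‖v‖⁻¹ v hv) (by rw [norm_smul]; simp [hn.ne'])
  have h2 := h _ (hP (-‖v‖⁻¹) v hv) (by rw [norm_smul]; simp [hn.ne'])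
  rw [map_smul, smul_eq_mul] at h1 h2
  rw [inv_mul_le_iff₀ hn] at h1
  rw [neg_mul, ← mul_neg, inv_mul_le_iff₀ hn] at h2
  rw [abs_le]
  constructor <;> linarith

lemma shrink1 (x : XX) {ε : ℝ} (hε : 0 < ε) :
    ∃ K : ℕ, ∀ v : Y, (∀ t ∈ topLt K, jump v t = 0) → |x v| ≤ ε * ‖v‖ := by
  set s := ε / (‖x‖ + 1) with hs
  have hs0 : 0 < s := by positivity
  obtain ⟨u, hu1, hu2⟩ := exists_near x (η := s ^ 2) (by positivity)
  refine ⟨u.supp.sup top + 1, bound_of_unit x _ (fun c v hv t ht => ?_) fun v hv hv1 => ?_⟩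
  · rw [jump_smul, hv t ht, mul_zero]
  have h1 := subadd (u.supp.sup top + 1) u (s • v) (fun t ht => by
    by_contra h
    exact ht (Or.inr (Nat.lt_succ_of_le (Finset.le_sup (f := top) (Y.mem_supp.mpr h)))))
    (fun t ht => by rw [jump_smul, hv t ht, mul_zero])
  have h2 : ‖s • v‖ ≤ s := by
    rw [norm_smul, Real.norm_of_nonneg hs0.le]
    exact mul_le_of_le_one_right hs0.le hv1
  have h3 : ‖u + s • v‖ ≤ 1 + s ^ 2 := by
    refine le_of_sq_le_sq (h1.trans ?_) (by positivity)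
    have : ‖u‖ ^ 2 ≤ 1 := pow_le_one₀ (norm_nonneg _) hu1
    have : ‖s • v‖ ^ 2 ≤ s ^ 2 := by gcongr
    nlinarith [sq_nonneg (s ^ 2), sq_nonneg s]
  have h4 := (le_abs_self _).trans (abs_apply_le x (u + s • v))
  rw [map_add, map_smul, smul_eq_mul] at h4
  have h5 : ‖x‖ * ‖u + s • v‖ ≤ ‖x‖ * (1 + s ^ 2) := by gcongr
  have h6 : s * x v ≤ s * (s * (‖x‖ + 1)) := by nlinarith
  have h7 := le_of_mul_le_mul_left h6 hs0
  have h8 : s * (‖x‖ + 1) = ε := by rw [hs]; field_simp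
  linarith

lemma length_lt_of_adm {K : ℕ} {t : Nd} (h : Adm t) (ht : t ∈ topLt K) : t.length < K + 1 := by
  rcases ht with h1 | h1
  · exact absurd h1 h.1
  · have := h.2
    omega

lemma sum_sq_e_le (x : XX) (K : ℕ) (S : Finset Nd) (hS : ∀ t ∈ S, Adm t ∧ t ∈ topLt K) :
    ∑ t ∈ S, x (e t) ^ 2 ≤ (K + 1) * ‖x‖ ^ 2 := by
  classical
  set w : Y := ∑ t ∈ S, x (e t) • e t with hw
  set σ := ∑ t ∈ S, x (e t) ^ 2 with hσ
  have h1 : x w = σ := by
    rw [hw, map_sum]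
    exact Finset.sum_congr rfl fun t _ => by rw [map_smul, smul_eq_mul, sq]
  have h2 : ‖w‖ ^ 2 ≤ (K + 1) * σ := by
    have := norm_sq_le_of_length w (K + 1) S (fun t ht => by
      by_contra h
      apply ht
      rw [hw, jump_comb, if_neg fun h1 => h h1.2])
      (fun t ht => length_lt_of_adm (hS t ht).1 (hS t ht).2)
    refine this.trans (le_of_eq ?_)
    push_cast
    congr 1
    refine Finset.sum_congr rfl fun t ht => ?_
    rw [hw, jump_comb, if_pos ⟨(hS t ht).1, ht⟩]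
  have h3 := abs_apply_le x w
  have h0 : 0 ≤ σ := Finset.sum_nonneg fun _ _ => sq_nonneg _
  rw [h1, abs_of_nonneg h0] at h3
  have h4 : σ ^ 2 ≤ ‖x‖ ^ 2 * ((K + 1) * σ) := by
    calc σ ^ 2 ≤ (‖x‖ * ‖w‖) ^ 2 := by gcongr
      _ = ‖x‖ ^ 2 * ‖w‖ ^ 2 := by ring
      _ ≤ _ := by gcongr
  rcases h0.eq_or_lt with h5 | h5
  · rw [← h5]; positivity
  · nlinarith

lemma shrink2 (x : XX) (K : ℕ) {ε : ℝ} (hε : 0 < ε) :
    ∃ F : Finset Nd, ∀ v : Y, (∀ t, t ∉ topLt K → jump v t = 0) → (∀ t ∈ F, jump v t = 0) →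
      |x v| ≤ ε * ‖v‖ := by
  classical
  set c : Nd → ℝ := fun t => if Adm t ∧ t ∈ topLt K then x (e t) ^ 2 else 0 with hc
  have hc0 : ∀ t, 0 ≤ c t := fun t => by
    simp only [hc]
    split_ifs <;> positivity
  have hsum : Summable c := by
    refine summable_of_sum_le hc0 (c := (K + 1) * ‖x‖ ^ 2) fun S => ?_
    rw [hc, ← Finset.sum_filter]
    exact sum_sq_e_le x K _ fun t ht => (mem_filter.mp ht).2
  obtain ⟨F, hF⟩ := summable_iff_vanishing_norm.mp hsum (ε ^ 2) (by positivity)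
  refine ⟨F, fun v hv1 hv2 => ?_⟩
  have h1 : x v = ∑ t ∈ v.supp, jump v t * x (e t) := by
    conv_lhs => rw [expand v v.supp fun t => Y.mem_supp.mpr]
    rw [map_sum]
    exact Finset.sum_congr rfl fun t _ => by rw [map_smul, smul_eq_mul]
  have h2 : ∑ t ∈ v.supp, x (e t) ^ 2 ≤ ε ^ 2 := by
    have := hF v.supp (Finset.disjoint_left.mpr fun t ht h => Y.mem_supp.mp ht (hv2 t h))
    refine le_trans (le_of_eq ?_) ((le_abs_self _).trans this.le)
    refine Finset.sum_congr rfl fun t ht => ?_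
    have h3 := Y.mem_supp.mp ht
    rw [hc]
    simp only
    rw [if_pos ⟨by_contra fun h => h3 (v.adm t h), by_contra fun h => h3 (hv1 t h)⟩]
  have h3 := Finset.sum_mul_sq_le_sq_mul_sq v.supp (fun t => jump v t) (fun t => x (e t))
  have h4 := sum_jump_sq_le v v.supp
  refine abs_le_of_sq_le_sq ?_ (by positivity)
  rw [h1, mul_pow, mul_comm (ε ^ 2)]
  refine h3.trans ?_
  gcongr

lemma shrink (x : XX) {ε : ℝ} (hε : 0 < ε) :
    ∃ F : Finset Nd, ∀ v : Y, (∀ t ∈ F, jump v t = 0) → |x v| ≤ ε * ‖v‖ := by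
  obtain ⟨K, hK⟩ := shrink1 x (half_pos hε)
  obtain ⟨F, hF⟩ := shrink2 x K (half_pos hε)
  refine ⟨F, fun v hv => ?_⟩
  have hA := isLow_topLt K
  have h1 := hK (v - res hA v) fun t ht => jump_sub_res_of_mem hA v ht
  have h2 := hF (res hA v) (fun t ht => jump_res_of_not_mem hA v ht) fun t ht => by
    rw [jump_res]
    split_ifs
    · exact hv t ht
    · rfl
  have h3 : x v = x (v - res hA v) + x (res hA v) := by rw [← map_add, sub_add_cancel]
  have h4 := norm_res_le hA v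
  have h5 := norm_sub_res_le hA v
  rw [h3]
  refine (abs_add_le _ _).trans ?_
  nlinarith

/-- the coordinate functionals -/
noncomputable def J (t : Nd) : XX :=
  LinearMap.mkContinuous
    { toFun := fun f => jump f t
      map_add' := fun f g => jump_add f g t
      map_smul' := fun c f => jump_smul c f t } 1
    (fun f => by simpa using abs_jump_le f t)

@[simp] lemma J_apply (t : Nd) (f : Y) : J t f = jump f t := rfl

/-- the evaluation functionals -/
noncomputable def ev (t : Nd) : XX :=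
  LinearMap.mkContinuous
    { toFun := fun f => f t
      map_add' := fun _ _ => rfl
      map_smul' := fun _ _ => rfl } 1
    (fun f => by rw [one_mul]; exact abs_le_norm f t)

@[simp] lemma ev_apply (t : Nd) (f : Y) : ev t f = f t := rfl

lemma norm_ev_le (t : Nd) : ‖ev t‖ ≤ 1 :=
  LinearMap.mkContinuous_norm_le _ zero_le_one _

noncomputable def PF (F : Finset Nd) (x : XX) : XX := ∑ t ∈ F, x (e t) • J t

lemma PF_apply {F : Finset Nd} (hF : IsLow (F : Set Nd)) (x : XX) (f : Y) :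
    PF F x f = x (res hF f) := by
  rw [res_expand hF, map_sum, PF, _root_.sum_apply]
  refine Finset.sum_congr rfl fun t _ => ?_
  simp [mul_comm]

lemma norm_PF_le {F : Finset Nd} (hF : IsLow (F : Set Nd)) (x : XX) : ‖PF F x‖ ≤ ‖x‖ := by
  refine ContinuousLinearMap.opNorm_le_bound _ (norm_nonneg _) fun f => ?_
  rw [PF_apply hF]
  exact (x.le_opNorm _).trans (by gcongr; exact norm_res_le hF f)

lemma exists_PF_near (x : XX) {ε : ℝ} (hε : 0 < ε) (S : Finset Nd) :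
    ∃ G : Finset Nd, IsLow (G : Set Nd) ∧ S ⊆ G ∧ ‖x - PF G x‖ ≤ ε := by
  classical
  obtain ⟨F, hF⟩ := shrink x hε
  obtain ⟨G, hG, hs⟩ := exists_low (S ∪ F)
  refine ⟨G, hG, subset_union_left.trans hs, ?_⟩
  refine ContinuousLinearMap.opNorm_le_bound _ hε.le fun f => ?_
  rw [_root_.sub_apply, PF_apply hG, ← map_sub, Real.norm_eq_abs]
  refine (hF _ fun t ht => jump_sub_res_of_mem hG f (hs (mem_union_right _ ht))).trans ?_
  gcongr
  exact norm_sub_res_le hG f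

noncomputable def uF (g : StrongDual ℝ XX) (F : Finset Nd) : Y := ∑ t ∈ F, g (J t) • e t

lemma apply_uF (g : StrongDual ℝ XX) (F : Finset Nd) (x : XX) : x (uF g F) = g (PF F x) := by
  rw [uF, PF, map_sum, map_sum]
  refine Finset.sum_congr rfl fun t _ => ?_
  simp [mul_comm]

lemma norm_uF_le (g : StrongDual ℝ XX) {F : Finset Nd} (hF : IsLow (F : Set Nd)) :
    ‖uF g F‖ ≤ ‖g‖ := by
  refine NormedSpace.norm_le_dual_bound ℝ _ (ContinuousLinearMap.opNorm_nonneg g) fun x => ?_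
  rw [apply_uF]
  exact (g.le_opNorm _).trans (by gcongr; exact norm_PF_le hF x)

lemma res_uF (g : StrongDual ℝ XX) {F G : Finset Nd} (hF : IsLow (F : Set Nd)) (h : F ⊆ G) :
    res hF (uF g G) = uF g F := by
  refine Y.ext_jump fun t => ?_
  rw [jump_res, uF, uF, jump_comb, jump_comb]
  by_cases ht : t ∈ F
  · rw [if_pos (show t ∈ (F : Set Nd) from ht)]
    by_cases h2 : Adm t
    · rw [if_pos ⟨h2, h ht⟩, if_pos ⟨h2, ht⟩]
    · rw [if_neg fun h => h2 h.1, if_neg fun h => h2 h.1]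
  · simp [ht]

lemma dense_aux (g : StrongDual ℝ XX) {ε : ℝ} (hε : 0 < ε) :
    ∃ u : Y, ∀ x : XX, |g x - x u| ≤ ε * ‖x‖ := by
  set V : Set ℝ := {r | ∃ F : Finset Nd, IsLow (F : Set Nd) ∧ r = ‖uF g F‖ ^ 2} with hV
  have hne : V.Nonempty := by
    obtain ⟨F, hF, -⟩ := exists_low ∅
    exact ⟨_, F, hF, rfl⟩
  have hbd : BddAbove V := by
    refine ⟨‖g‖ ^ 2, ?_⟩
    rintro _ ⟨F, hF, rfl⟩
    have := norm_uF_le g hF
    gcongr
  obtain ⟨_, ⟨F, hF, rfl⟩, hlt⟩ := exists_lt_of_lt_csSup hne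
    (show sSup V - ε ^ 2 < sSup V by nlinarith [sq_pos_of_pos hε])
  refine ⟨uF g F, fun x => ?_⟩
  refine le_of_forall_pos_le_add fun η hη => ?_
  obtain ⟨G, hG, hFG, hx⟩ := exists_PF_near x (ε := η / (‖g‖ + 1)) (by positivity) F
  have h1 := superadd hF (uF g G)
  rw [res_uF g hF hFG] at h1
  have h2 : ‖uF g G‖ ^ 2 ≤ sSup V := le_csSup hbd ⟨G, hG, rfl⟩
  have h3 : ‖uF g G - uF g F‖ ≤ ε := le_of_sq_le_sq (by linarith) hε.le
  have h4 : g x - x (uF g F) = g (x - PF G x) + x (uF g G - uF g F) := by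
    rw [map_sub, map_sub, apply_uF g G]; ring
  have h5 : |g (x - PF G x)| ≤ η := by
    have := g.le_opNorm (x - PF G x)
    rw [Real.norm_eq_abs] at this
    refine this.trans ?_
    calc ‖g‖ * ‖x - PF G x‖ ≤ (‖g‖ + 1) * (η / (‖g‖ + 1)) := by gcongr; linarith
      _ = η := by field_simp
  have h6 : |x (uF g G - uF g F)| ≤ ε * ‖x‖ := by
    refine (abs_apply_le x _).trans ?_
    rw [mul_comm]
    gcongr
  rw [h4]
  refine (abs_add_le _ _).trans ?_
  linarith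

theorem reflexive_XX : Function.Surjective (NormedSpace.inclusionInDoubleDual ℝ XX) := by
  intro φ
  refine ⟨φ.comp (NormedSpace.inclusionInDoubleDual ℝ Y), ?_⟩
  set x : XX := φ.comp (NormedSpace.inclusionInDoubleDual ℝ Y) with hx
  ext g
  rw [NormedSpace.dual_def]
  refine eq_of_abs_sub_nonpos (le_of_forall_pos_le_add fun η hη => ?_)
  obtain ⟨u, hu⟩ := dense_aux g (ε := η / (‖x‖ + ‖φ‖ + 1)) (by positivity)
  have h1 : ‖g - NormedSpace.inclusionInDoubleDual ℝ Y u‖ ≤ η / (‖x‖ + ‖φ‖ + 1) := by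
    refine ContinuousLinearMap.opNorm_le_bound _ (by positivity) fun z => ?_
    simpa using hu z
  have h2 : g x - φ g = (g x - x u) - φ (g - NormedSpace.inclusionInDoubleDual ℝ Y u) := by
    rw [map_sub]
    have : x u = φ (NormedSpace.inclusionInDoubleDual ℝ Y u) := rfl
    rw [this]; ring
  have h3 := φ.le_opNorm (g - NormedSpace.inclusionInDoubleDual ℝ Y u)
  rw [Real.norm_eq_abs] at h3
  have h4 := hu x
  rw [h2, zero_add]
  refine (abs_sub _ _).trans ?_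
  have h5 : ‖φ‖ * ‖g - NormedSpace.inclusionInDoubleDual ℝ Y u‖ ≤
      ‖φ‖ * (η / (‖x‖ + ‖φ‖ + 1)) := by gcongr
  have h6 : η / (‖x‖ + ‖φ‖ + 1) * (‖x‖ + ‖φ‖ + 1) = η := by field_simp
  have h7 : 0 < η / (‖x‖ + ‖φ‖ + 1) := by positivity
  nlinarith

end Vale.Agent.P069
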