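import Vale.Agent.P069.Proj

/-! The key estimate behind asymptotic midpoint uniform convexity. -/

namespace Vale.Agent.P069

open Finset

lemma exists_sign (u : Nd → ℝ) (p : Nd) (l : ℝ) :
    ∃ τ : ℝ, (τ = 1 ∨ τ = -1) ∧ ∀ a, a <:+ p → τ * (u p - u a) ≤ -l →
      ∃ q, a <:+ q ∧ q <:+ p ∧ l ≤ τ * (u p - u q) := by
  classical
  by_cases h : (p.tails.toFinset.filter fun q => l ≤ |u p - u q|).Nonempty
  · obtain ⟨q, hq, hmax⟩ := Finset.exists_max_image _ List.length h
    simp only [mem_filter, List.mem_toFinset, List.mem_tails] at hq hmax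
    have main : ∀ τ : ℝ, (τ = 1 ∨ τ = -1) → l ≤ τ * (u p - u q) →
        ∀ a, a <:+ p → τ * (u p - u a) ≤ -l →
          ∃ q, a <:+ q ∧ q <:+ p ∧ l ≤ τ * (u p - u q) := by
      intro τ hτ h1 a ha h2
      refine ⟨q, List.suffix_of_suffix_length_le ha hq.1 (hmax a ⟨ha, ?_⟩), hq.1, h1⟩
      rcases hτ with rfl | rfl
      · exact le_abs.mpr (Or.inr (by linarith))
      · exact le_abs.mpr (Or.inl (by linarith))
    rcases le_abs.mp hq.2 with h1 | h1
    · exact ⟨1, Or.inl rfl, main 1 (Or.inl rfl) (by linarith)⟩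
    · exact ⟨-1, Or.inr rfl, main (-1) (Or.inr rfl) (by linarith)⟩
  · refine ⟨1, Or.inl rfl, fun a ha h2 => absurd ⟨a, ?_⟩ h⟩
    simp only [mem_filter, List.mem_toFinset, List.mem_tails]
    exact ⟨ha, le_abs.mpr (Or.inr (by linarith))⟩

/-- truncation to the sign opposite to `τ` -/
noncomputable def tr (τ z : ℝ) : ℝ := if τ = 1 then min z 0 else max z 0

lemma tr_zero (τ : ℝ) : tr τ 0 = 0 := by simp [tr]

lemma tr_sub (τ z : ℝ) : tr τ z - tr τ (-z) = z := by
  unfold tr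
  split_ifs
  · rcases le_total z 0 with h | h
    · rw [min_eq_left h, min_eq_right (by linarith)]; ring
    · rw [min_eq_right h, min_eq_left (by linarith)]; ring
  · rcases le_total z 0 with h | h
    · rw [max_eq_right h, max_eq_left (by linarith)]; ring
    · rw [max_eq_left h, max_eq_right (by linarith)]; ring

lemma tr_lip (τ z w : ℝ) : (tr τ z - tr τ w) ^ 2 ≤ (z - w) ^ 2 := by
  rw [sq_le_sq]
  unfold tr
  split_ifs
  · exact (abs_min_sub_min_le_max z 0 w 0).trans (by simp)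
  · exact abs_max_sub_max_le_abs z w 0

lemma tr_sign {τ : ℝ} (hτ : τ = 1 ∨ τ = -1) (z : ℝ) : τ * tr τ z ≤ 0 := by
  unfold tr
  rcases hτ with rfl | rfl
  · simp
  · rw [if_neg (by norm_num)]
    simp

lemma pointwise_est {τ D c l : ℝ} (hτ : τ = 1 ∨ τ = -1) (hc : τ * c ≤ 0) (hcl : |c| ≤ l)
    (hD : -l ≤ τ * D) : (D + c) ^ 2 ≤ D ^ 2 + c ^ 2 + 2 * l ^ 2 := by
  have h1 := abs_le.mp hcl
  rcases hτ with rfl | rfl <;> nlinarith

lemma pointwise_est' {τ D P c l : ℝ} (hτ : τ = 1 ∨ τ = -1) (hcl : |c| ≤ l)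
    (hD : τ * D ≤ -l) (hP : l ≤ τ * P) : (D + c) ^ 2 ≤ (D - P) ^ 2 + P ^ 2 + c ^ 2 := by
  have h1 := abs_le.mp hcl
  rcases hτ with rfl | rfl <;> nlinarith

lemma key_aux {A : Set Nd} (hA : IsLow A) (u g : Y) (hu : ∀ t, t ∉ A → jump u t = 0)
    (hg : ∀ t, t ∈ A → jump g t = 0) (m : Nd → Nd) (hm : ∀ p ∈ A, pj A (m p) = p)
    (hm' : ∀ t, |g t| ≤ |g (m (pj A t))|) (τ : Nd → ℝ) (hτ : ∀ p, τ p = 1 ∨ τ p = -1)
    (hτ' : ∀ p a, a <:+ p → τ p * (u p - u a) ≤ -|g (m p)| →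
      ∃ q, a <:+ q ∧ q <:+ p ∧ |g (m p)| ≤ τ p * (u p - u q)) :
    ∃ w : Y, (∀ t, w t = tr (τ (pj A t)) (g t)) ∧ (∀ t, t ∈ A → jump w t = 0) ∧ ‖w‖ ≤ ‖g‖ ∧
      ‖u + w‖ ^ 2 ≤ ‖u‖ ^ 2 + 3 * ‖g‖ ^ 2 := by
  classical
  have hu' : ∀ t, u t = u (pj A t) := fun t => by
    rw [← res_apply hA, res_eq_self hA hu]
  have hg' : ∀ t, t ∈ A → g t = 0 := fun t ht => by
    have := res_apply hA g t
    rw [res_eq_zero hA hg, pj_of_mem ht] at this
    exact this.symm
  set w0 : Nd → ℝ := fun t => tr (τ (pj A t)) (g t) with hw0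
  have hw0A : ∀ t, t ∈ A → w0 t = 0 := fun t ht => by
    simp only [hw0, hg' t ht, tr_zero]
  have lip : ∀ a b, a <:+ b → (w0 b - w0 a) ^ 2 ≤ (g b - g a) ^ 2 := by
    intro a b hab
    by_cases ha : a ∈ A
    · have := tr_lip (τ (pj A b)) (g b) 0
      rw [tr_zero] at this
      rw [hw0A a ha, hg' a ha]
      exact this
    · simp only [hw0, pj_eq_of_not_mem hA hab ha]
      exact tr_lip _ _ _
  have hj : ∀ t, jump g t = 0 → jump w0 t = 0 := by
    intro t ht
    have := lip t.tail t (List.tail_suffix t)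
    change jump w0 t ^ 2 ≤ jump g t ^ 2 at this
    rw [ht] at this
    have h2 : jump w0 t ^ 2 = 0 := le_antisymm (by simpa using this) (sq_nonneg _)
    simpa using h2
  let w : Y := Y.mk w0 (hw0A _ hA.1) (g.fin.subset fun t ht h => ht (hj t h))
    (fun t ht => hj t (g.adm t ht))
  refine ⟨w, fun t => rfl, fun t ht => hj t (hg t ht), ?_, ?_⟩
  · refine le_of_sq_le_sq (norm_sq_le _ fun n a b h => ?_) (norm_nonneg _)
    exact (Finset.sum_le_sum fun i hi => lip _ _ (h.1 i hi)).trans (fam_le g h)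
  refine norm_sq_le _ fun n a b h => ?_
  have pt : ∀ i : Fin n, ∃ q, a i <:+ q ∧ q <:+ b i ∧
      ((u + w) (b i) - (u + w) (a i)) ^ 2 ≤ (u q - u (a i)) ^ 2 + (u (b i) - u q) ^ 2 +
        (g (b i) - g (a i)) ^ 2 +
          (if pj A (b i) ∈ Seg (a i) (b i) then 2 * g (m (pj A (b i))) ^ 2 else 0) := by
    intro i
    have hab := h.1 i (mem_univ i)
    by_cases hp : pj A (b i) ∈ Seg (a i) (b i)
    · rw [if_pos hp]
      have hap : a i <:+ pj A (b i) := (suffix_total hab (pj_suffix A _)).resolve_right hp.2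
      have haA : a i ∈ A := hA.2 _ _ hap (pj_mem hA _)
      have e1 : (u + w) (b i) - (u + w) (a i) = (u (pj A (b i)) - u (a i)) + w0 (b i) := by
        change u (b i) + w0 (b i) - (u (a i) + w0 (a i)) = _
        rw [hw0A _ haA, hu' (b i)]; ring
      have hc1 : w0 (b i) ^ 2 ≤ (g (b i) - g (a i)) ^ 2 := by
        have := lip _ _ hab
        rwa [hw0A _ haA, sub_zero] at this
      have hc2 : |w0 (b i)| ≤ |g (m (pj A (b i)))| := by
        refine le_trans ?_ (hm' (b i))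
        rw [hg' _ haA, sub_zero] at hc1
        exact sq_le_sq.mp hc1
      rw [e1]
      rcases le_total (τ (pj A (b i)) * (u (pj A (b i)) - u (a i))) (-|g (m (pj A (b i)))|)
        with hD | hD
      · obtain ⟨q, hq1, hq2, hq3⟩ := hτ' _ _ hap hD
        refine ⟨q, hq1, hq2.trans (pj_suffix A _), ?_⟩
        have := pointwise_est' (hτ _) hc2 hD hq3
        rw [hu' (b i)]
        have e2 : u (pj A (b i)) - u (a i) - (u (pj A (b i)) - u q) = u q - u (a i) := by ring
        rw [e2] at this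
        nlinarith [sq_nonneg (g (m (pj A (b i))))]
      · refine ⟨b i, hab, List.suffix_rfl, ?_⟩
        have := pointwise_est (hτ _) (tr_sign (hτ _) (g (b i))) hc2 hD
        rw [sq_abs] at this
        rw [sub_self, hu' (b i)]
        change _ ≤ _ + w0 (b i) ^ 2 + _ at this
        nlinarith
    · rw [if_neg hp]
      have hpa : pj A (b i) <:+ a i := by
        by_contra h1
        exact hp ⟨pj_suffix A _, h1⟩
      have e0 : u (b i) = u (a i) := by
        rw [hu' (b i), hu' (a i), pj_eq_of_suffix hA hab hpa]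
      refine ⟨b i, hab, List.suffix_rfl, ?_⟩
      have e1 : (u + w) (b i) - (u + w) (a i) = w0 (b i) - w0 (a i) := by
        change u (b i) + w0 (b i) - (u (a i) + w0 (a i)) = _
        rw [e0]; ring
      rw [e1, e0]
      have := lip _ _ hab
      nlinarith
  choose q hq1 hq2 hq3 using pt
  refine (Finset.sum_le_sum fun i _ => hq3 i).trans ?_
  simp only [Finset.sum_add_distrib]
  have s1 : ∀ i, Seg (a i) (q i) ⊆ Seg (a i) (b i) := fun i t ht => ⟨ht.1.trans (hq2 i), ht.2⟩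
  have s2 : ∀ i, Seg (q i) (b i) ⊆ Seg (a i) (b i) :=
    fun i t ht => ⟨ht.1, fun h1 => ht.2 (h1.trans (hq1 i))⟩
  have b1 := fam_le₂ u (s := univ) (a := a) (b := q) (r := univ) (c := q) (d := b)
    ⟨fun i _ => hq1 i, fun i hi j hj hij => (h.2 i hi j hj hij).mono (s1 i) (s1 j)⟩
    ⟨fun i _ => hq2 i, fun i hi j hj hij => (h.2 i hi j hj hij).mono (s2 i) (s2 j)⟩
    (fun i hi j hj => by
      by_cases hij : i = j
      · subst hij
        rw [Set.disjoint_left]
        exact fun t h1 h2 => h2.2 h1.1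
      · exact (h.2 i hi j hj hij).mono (s1 i) (s2 j))
  have b2 := fam_le g h
  have b3 : ∑ i, (if pj A (b i) ∈ Seg (a i) (b i) then 2 * g (m (pj A (b i))) ^ 2 else 0)
      ≤ 2 * ‖g‖ ^ 2 := by
    rw [← Finset.sum_filter, ← Finset.mul_sum]
    have hf : IsFam (univ.filter fun i => pj A (b i) ∈ Seg (a i) (b i)) (fun i => pj A (b i))
        (fun i => m (pj A (b i))) := by
      refine ⟨fun i _ => ?_, fun i hi j hj hij => ?_⟩
      · have := pj_suffix A (m (pj A (b i)))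
        rwa [hm _ (pj_mem hA _)] at this
      · have aux : ∀ p ∈ A, ∀ t ∈ Seg p (m p), pj A t = p := by
          intro p hp t ht
          have htA : t ∉ A := fun h1 => ht.2 (by
            have := suffix_pj h1 ht.1
            rwa [hm p hp] at this)
          rw [pj_eq_of_not_mem hA ht.1 htA, hm p hp]
        rw [Set.disjoint_left]
        intro t h1 h2
        have e1 := aux _ (pj_mem hA _) t h1
        have e2 := aux _ (pj_mem hA _) t h2
        have hi' := (mem_filter.mp hi).2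
        have hj' := (mem_filter.mp hj).2
        rw [← e1] at hi'
        rw [← e2] at hj'
        exact Set.disjoint_left.mp (h.2 i (mem_univ i) j (mem_univ j) hij) hi' hj'
    have := fam_le g hf
    simp only [hg' _ (pj_mem hA _), sub_zero] at this
    linarith
  linarith

lemma key {A : Set Nd} (hA : IsLow A) (u g : Y) (hu : ∀ t, t ∉ A → jump u t = 0)
    (hg : ∀ t, t ∈ A → jump g t = 0) :
    ∃ w₁ w₂ : Y, w₁ - w₂ = g ∧ ∀ w, w = w₁ ∨ w = w₂ → (∀ t, t ∈ A → jump w t = 0) ∧ ‖w‖ ≤ ‖g‖ ∧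
      ‖u + w‖ ^ 2 ≤ ‖u‖ ^ 2 + 3 * ‖g‖ ^ 2 := by
  have h1 : ∀ p, ∃ r, p ∈ A → pj A r = p ∧ ∀ t, pj A t = p → |g t| ≤ |g r| := by
    intro p
    by_cases hp : p ∈ A
    · obtain ⟨z, ⟨r, hr, rfl⟩, hmax⟩ := Set.exists_max_image (g '' {t | pj A t = p}) abs
        ((range_finite g).subset (Set.image_subset_range _ _)) ⟨g p, p, pj_of_mem hp, rfl⟩
      exact ⟨r, fun _ => ⟨hr, fun t ht => hmax _ ⟨t, ht, rfl⟩⟩⟩
    · exact ⟨p, fun h => absurd h hp⟩
  choose m hm using h1
  choose τ hτ hτ' using fun p => exists_sign u p |g (m p)|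
  obtain ⟨w₁, e1, hw1⟩ := key_aux hA u g hu hg m (fun p hp => (hm p hp).1)
    (fun t => (hm _ (pj_mem hA t)).2 t rfl) τ hτ hτ'
  obtain ⟨w₂, e2, hw2⟩ := key_aux hA u (-g) hu
    (fun t ht => by
      have := jump_smul (-1) g t
      rw [neg_one_smul] at this
      rw [this, hg t ht, mul_zero])
    m (fun p hp => (hm p hp).1)
    (fun t => by simpa using (hm _ (pj_mem hA t)).2 t rfl) τ hτ
    (by simpa using hτ')
  refine ⟨w₁, w₂, ?_, ?_⟩
  · ext t
    rw [Y.sub_apply, e1, e2, Y.neg_apply, tr_sub]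
  · rintro w (rfl | rfl)
    · exact hw1
    · simpa using hw2

end Vale.Agent.P069
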