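import Vale.Agent.P069.Dual
import Vale.Agent.P069.Defs

/-! The dual space is AMUC but not AUC renormable. -/

namespace Vale.Agent.P069

open Finset Filter Topology

/-- functionals vanishing on finitely many basis vectors -/
noncomputable def annih (F : Finset Nd) : Submodule ℝ XX :=
  LinearMap.ker (LinearMap.pi (R := ℝ) (φ := fun _ : F => ℝ) fun t : F =>
    ((NormedSpace.inclusionInDoubleDual ℝ Y (e t) : StrongDual ℝ XX) : XX →ₗ[ℝ] ℝ))

lemma mem_annih {F : Finset Nd} {y : XX} : y ∈ annih F ↔ ∀ t ∈ F, y (e t) = 0 := by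
  simp [annih, funext_iff]

lemma annih_mem_cof (F : Finset Nd) : annih F ∈ cof XX := by
  refine ⟨?_, ?_⟩
  · have : (annih F : Set XX) = ⋂ t ∈ F, {y : XX | y (e t) = 0} := by
      ext y
      simp [mem_annih]
    rw [this]
    refine isClosed_biInter fun t _ => ?_
    exact isClosed_eq (NormedSpace.inclusionInDoubleDual ℝ Y (e t)).continuous continuous_const
  · exact (LinearMap.quotKerEquivRange _).symm.finiteDimensional

lemma apply_eq_zero_of_annih {F : Finset Nd} (hF : IsLow (F : Set Nd)) {y : XX}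
    (hy : y ∈ annih F) (f : Y) : y (res hF f) = 0 := by
  rw [res_expand hF, map_sum]
  refine Finset.sum_eq_zero fun t ht => ?_
  rw [map_smul, mem_annih.mp hy t ht, smul_zero]

lemma amuc_aux {t : ℝ} (ht : 0 < t) (x : XX) (hx : ‖x‖ = 1) :
    ∃ F ∈ cof XX, ∀ y ∈ F, ‖y‖ = 1 →
      (t ^ 2 / 192) / (1 + t ^ 2 / 96) ≤ max ‖x + t • y‖ ‖x - t • y‖ - 1 := by
  classical
  set s := t / 12 with hs
  have hs0 : 0 < s := by positivity
  set η := t * s / 16 / (1 + s) with hη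
  have hη0 : 0 < η := by positivity
  have hη1 : η * (1 + s) = t * s / 16 := by rw [hη]; field_simp
  obtain ⟨u, hu1, hu2⟩ := exists_near x hη0
  obtain ⟨F0, hF0⟩ := shrink x hη0
  obtain ⟨F, hF, hsub⟩ := exists_low (u.supp ∪ F0)
  refine ⟨annih F, annih_mem_cof F, fun y hy hy1 => ?_⟩
  have huF : ∀ r, r ∉ (F : Set Nd) → jump u r = 0 := fun r hr => by
    by_contra h
    exact hr (hsub (mem_union_left _ (Y.mem_supp.mpr h)))
  have hyu : y u = 0 := by
    rw [← res_eq_self hF huF]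
    exact apply_eq_zero_of_annih hF hy u
  obtain ⟨v, hv1, hv2⟩ := exists_near y (η := 1 / 2) (by norm_num)
  set g := s • (v - res hF v) with hg
  have hg1 : ‖g‖ ≤ s := by
    rw [hg, norm_smul, Real.norm_of_nonneg hs0.le]
    exact mul_le_of_le_one_right hs0.le ((norm_sub_res_le hF v).trans hv1)
  have hg2 : s / 2 ≤ y g := by
    rw [hg, map_smul, map_sub, apply_eq_zero_of_annih hF hy, smul_eq_mul]
    rw [hy1] at hv2
    nlinarith
  obtain ⟨w₁, w₂, hw, H⟩ := key hF u g huF fun r hr => by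
    rw [hg, jump_smul, jump_sub_res_of_mem hF v hr, mul_zero]
  have hex : ∃ w : Y, (w = w₁ ∨ w = w₂) ∧ s / 4 ≤ |y w| := by
    rw [← hw, map_sub] at hg2
    by_cases h : s / 4 ≤ y w₁
    · exact ⟨w₁, Or.inl rfl, h.trans (le_abs_self _)⟩
    · exact ⟨w₂, Or.inr rfl, le_trans (by linarith) (neg_le_abs _)⟩
  obtain ⟨w, hw0, hyw⟩ := hex
  obtain ⟨a1, a2, a3⟩ := H w hw0
  have b1 : |x w| ≤ η * s := (hF0 w fun r hr => a1 r (hsub (mem_union_right _ hr))).trans
    (by gcongr; exact a2.trans hg1)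
  have b2 : ‖u + w‖ ≤ 1 + 3 * s ^ 2 / 2 := by
    refine le_of_sq_le_sq (a3.trans ?_) (by positivity)
    have : ‖u‖ ^ 2 ≤ 1 := pow_le_one₀ (norm_nonneg _) hu1
    have : ‖g‖ ^ 2 ≤ s ^ 2 := by gcongr
    nlinarith [sq_nonneg (s ^ 2)]
  set M := max ‖x + t • y‖ ‖x - t • y‖ with hM
  have hM0 : 0 ≤ M := le_max_of_le_left (norm_nonneg _)
  have c1 : (x + t • y) (u + w) ≤ M * (1 + 3 * s ^ 2 / 2) :=
    ((le_abs_self _).trans (abs_apply_le _ _)).trans
      (mul_le_mul (le_max_left _ _) b2 (norm_nonneg _) hM0)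
  have c2 : (x - t • y) (u + w) ≤ M * (1 + 3 * s ^ 2 / 2) :=
    ((le_abs_self _).trans (abs_apply_le _ _)).trans
      (mul_le_mul (le_max_right _ _) b2 (norm_nonneg _) hM0)
  have d1 : (x + t • y) (u + w) = x u + x w + t * y w := by
    simp [hyu]
  have d2 : (x - t • y) (u + w) = x u + x w - t * y w := by
    simp [hyu]
  rw [hx] at hu2
  have b3 := (abs_le.mp b1).1
  have c3 : 1 + 3 * (t * s) / 16 ≤ M * (1 + 3 * s ^ 2 / 2) := by
    rcases le_abs.mp hyw with h | h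
    · have : t * (s / 4) ≤ t * y w := by gcongr
      nlinarith
    · have : t * (s / 4) ≤ t * (- y w) := by gcongr
      nlinarith
  have e1 : 1 + 3 * s ^ 2 / 2 = 1 + t ^ 2 / 96 := by rw [hs]; ring
  have e2 : t * s = t ^ 2 / 12 := by rw [hs]; ring
  rw [e1, e2] at c3
  rw [div_le_iff₀ (by positivity)]
  nlinarith

theorem amuc_XX : AMUCRenormable XX := by
  refine ⟨normSeminorm ℝ XX, ⟨1, 1, one_pos, one_pos, fun x => by simp⟩, fun t ht => ?_⟩
  have hδ : (0 : ℝ) < (t ^ 2 / 192) / (1 + t ^ 2 / 96) := by positivity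
  refine lt_of_lt_of_le (EReal.coe_pos.mpr hδ) ?_
  refine le_iInf₂ fun x hx => ?_
  obtain ⟨F, hF, h⟩ := amuc_aux ht x hx
  refine le_iSup₂_of_le F hF (le_iInf₂ fun y hy => ?_)
  exact EReal.coe_le_coe_iff.mpr (h y hy.1 hy.2)

section general

variable {X : Type} [NormedAddCommGroup X] [NormedSpace ℝ X]

lemma auc_of_finiteDimensional [FiniteDimensional ℝ X] : AUCRenormable X := by
  refine ⟨normSeminorm ℝ X, ⟨1, 1, one_pos, one_pos, fun x => by simp⟩, fun t _ => ?_⟩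
  refine lt_of_lt_of_le EReal.zero_lt_top (le_iInf₂ fun x _ => ?_)
  refine le_iSup₂_of_le ⊥ ⟨by simp, inferInstance⟩ (le_iInf₂ fun y hy => ?_)
  exfalso
  obtain ⟨h1, h2⟩ := hy
  rw [Submodule.mem_bot] at h1
  rw [h1] at h2
  simp at h2

lemma exists_of_auc {N : Seminorm ℝ X} {t : ℝ} (h : 0 < aucModulus N t) :
    ∃ δ : ℝ, 0 < δ ∧ ∀ x, N x = 1 → ∃ F ∈ cof X, ∀ y ∈ F, N y = 1 → 1 + δ ≤ N (x + t • y) := by
  obtain ⟨δ, h1, h2⟩ := EReal.lt_iff_exists_real_btwn.mp h
  refine ⟨δ, EReal.coe_pos.mp h1, fun x hx => ?_⟩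
  have h3 := h2.trans_le (iInf₂_le x hx)
  obtain ⟨F, h4⟩ := lt_iSup_iff.mp h3
  obtain ⟨hF, h5⟩ := lt_iSup_iff.mp h4
  refine ⟨F, hF, fun y hy hy1 => ?_⟩
  have h6 := h5.trans_le (iInf₂_le y ⟨hy, hy1⟩)
  have := EReal.coe_lt_coe_iff.mp h6
  linarith

lemma exists_near_of_weak_null {y : ℕ → X}
    (hy : ∀ g : StrongDual ℝ X, Tendsto (fun n => g (y n)) atTop (𝓝 0))
    {F : Submodule ℝ X} (hF : F ∈ cof X) {ε : ℝ} (hε : 0 < ε) :
    ∃ n, ∃ z ∈ F, ‖y n - z‖ < ε := by
  haveI : IsClosed (F : Set X) := hF.1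
  haveI : FiniteDimensional ℝ (X ⧸ F) := hF.2
  let b := Module.finBasis ℝ (X ⧸ F)
  have h1 : Tendsto (fun n => F.mkQ (y n)) atTop (𝓝 0) := by
    have h2 : ∀ i, Tendsto (fun n => b.coord i (F.mkQ (y n)) • b i) atTop (𝓝 0) := by
      intro i
      have := (hy ((LinearMap.toContinuousLinearMap (b.coord i)).comp F.mkQL)).smul_const (b i)
      rw [zero_smul] at this
      exact this
    have h3 := tendsto_finset_sum univ fun i _ => h2 i
    rw [Finset.sum_const_zero] at h3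
    refine h3.congr fun n => ?_
    simpa using b.sum_repr (F.mkQ (y n))
  obtain ⟨n, hn⟩ := ((tendsto_zero_iff_norm_tendsto_zero.mp h1).eventually
    (gt_mem_nhds (half_pos hε))).exists
  obtain ⟨m, hm1, hm2⟩ := Submodule.Quotient.norm_mk_lt (F.mkQ (y n)) (half_pos hε)
  refine ⟨n, y n - m, ?_, ?_⟩
  · rw [← Submodule.Quotient.eq]
    exact hm1.symm
  · rw [sub_sub_cancel]
    linarith

lemma convex_step (N : Seminorm ℝ X) {x z : X} {δ r : ℝ} (hx : N x = 1) (hδ : 0 ≤ δ) (hr : 1 ≤ r)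
    (h : 1 + δ ≤ N (x + z)) : 1 + δ ≤ N (x + r • z) := by
  have hr0 : 0 < r := by linarith
  have e : r • (x + z) = (r - 1) • x + (x + r • z) := by module
  have h1 : N (r • (x + z)) ≤ N ((r - 1) • x) + N (x + r • z) := e ▸ map_add_le_add N _ _
  rw [map_smul_eq_mul, map_smul_eq_mul, hx, Real.norm_of_nonneg hr0.le,
    Real.norm_of_nonneg (by linarith)] at h1
  nlinarith

lemma grow {N : Seminorm ℝ X} {c C δ : ℝ} (hc : 0 < c) (hC : 0 < C) (hδ : 0 < δ)
    (hN : ∀ x, c * ‖x‖ ≤ N x ∧ N x ≤ C * ‖x‖)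
    (H : ∀ x, N x = 1 → ∃ F ∈ cof X, ∀ y ∈ F, N y = 1 → 1 + δ ≤ N (x + (c / (2 * C)) • y))
    {x : X} (hx0 : c ≤ N x) (hx1 : N x ≤ C) {y : ℕ → X} (hy1 : ∀ n, 1 ≤ ‖y n‖)
    (hy : ∀ g : StrongDual ℝ X, Tendsto (fun n => g (y n)) atTop (𝓝 0)) :
    ∃ n, (1 + δ / 2) * N x ≤ N (x + y n) := by
  have ha : 0 < N x := by linarith
  obtain ⟨F, hF, h⟩ := H ((N x)⁻¹ • x) (by
    rw [map_smul_eq_mul, Real.norm_of_nonneg (by positivity), inv_mul_cancel₀ ha.ne'])
  obtain ⟨n, z, hz, hn⟩ := exists_near_of_weak_null hy hF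
    (ε := min (1 / 2) (δ * c / (2 * C))) (by positivity)
  have n1 : ‖y n - z‖ < 1 / 2 := hn.trans_le (min_le_left _ _)
  have n2 : ‖y n - z‖ < δ * c / (2 * C) := hn.trans_le (min_le_right _ _)
  have z1 : 1 / 2 ≤ ‖z‖ := by
    have := norm_sub_norm_le (y n) z
    linarith [hy1 n]
  have z2 : c / 2 ≤ N z := by nlinarith [(hN z).1]
  have hb : 0 < N z := by linarith
  have h1 := h ((N z)⁻¹ • z) (F.smul_mem _ hz) (by
    rw [map_smul_eq_mul, Real.norm_of_nonneg (by positivity), inv_mul_cancel₀ hb.ne'])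
  have h2 := convex_step N (r := N z / N x / (c / (2 * C))) (by
    rw [map_smul_eq_mul, Real.norm_of_nonneg (by positivity), inv_mul_cancel₀ ha.ne']) hδ.le
    (by
      rw [le_div_iff₀ (by positivity), le_div_iff₀ ha, one_mul, div_mul_eq_mul_div,
        div_le_iff₀ (by positivity)]
      nlinarith) h1
  have e : (N x)⁻¹ • x + (N z / N x / (c / (2 * C))) • (c / (2 * C)) • (N z)⁻¹ • z =
      (N x)⁻¹ • (x + z) := by
    rw [smul_smul, smul_smul, smul_add]
    congr 2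
    field_simp
  rw [e, map_smul_eq_mul, Real.norm_of_nonneg (by positivity), le_inv_mul_iff₀ ha] at h2
  refine ⟨n, ?_⟩
  have h3 : N (x + z) ≤ N (x + y n) + N (y n - z) := by
    have e2 : x + z = (x + y n) - (y n - z) := by abel
    rw [e2]
    exact map_sub_le_add N _ _
  have h4 : N (y n - z) ≤ δ * c / 2 := by
    refine (hN _).2.trans ?_
    calc C * ‖y n - z‖ ≤ C * (δ * c / (2 * C)) := by gcongr
      _ = δ * c / 2 := by field_simp
  nlinarith

end general

lemma one_le_norm_J {t : Nd} (ht : Adm t) : 1 ≤ ‖J t‖ := by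
  have h1 := abs_apply_le (J t) (e t)
  rw [J_apply, jump_e, if_pos ⟨ht, rfl⟩, abs_one] at h1
  have := norm_e_le t
  nlinarith [norm_nonneg (J t)]

lemma weak_null (l : Nd) (g : StrongDual ℝ XX) :
    Tendsto (fun n => g (J (n :: l))) atTop (𝓝 0) := by
  have hs : Summable fun n => g (J (n :: l)) ^ 2 := by
    refine summable_of_sum_le (fun n => sq_nonneg _) (c := ‖g‖ ^ 2) fun S => ?_
    set σ := ∑ n ∈ S, g (J (n :: l)) ^ 2 with hσ
    set w : XX := ∑ n ∈ S, g (J (n :: l)) • J (n :: l) with hw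
    have h0 : 0 ≤ σ := Finset.sum_nonneg fun _ _ => sq_nonneg _
    have h1 : g w = σ := by
      rw [hw, map_sum]
      exact Finset.sum_congr rfl fun n _ => by rw [map_smul, smul_eq_mul, sq]
    have h2 : ‖w‖ ≤ √σ := by
      refine ContinuousLinearMap.opNorm_le_bound _ (Real.sqrt_nonneg _) fun f => ?_
      have h3 : w f = ∑ n ∈ S, g (J (n :: l)) * jump f (n :: l) := by
        rw [hw, _root_.sum_apply]
        rfl
      have h4 := Finset.sum_mul_sq_le_sq_mul_sq S (fun n => g (J (n :: l)))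
        (fun n => jump f (n :: l))
      have h5 : ∑ n ∈ S, jump f (n :: l) ^ 2 ≤ ‖f‖ ^ 2 := by
        have := sum_jump_sq_le f (S.image fun n => n :: l)
        rwa [Finset.sum_image (by simp)] at this
      rw [Real.norm_eq_abs]
      refine abs_le_of_sq_le_sq ?_ (by positivity)
      rw [h3, mul_pow, Real.sq_sqrt h0]
      exact h4.trans (by gcongr)
    have h3 := g.le_opNorm w
    rw [h1, Real.norm_of_nonneg h0] at h3
    have hg : 0 ≤ ‖g‖ := ContinuousLinearMap.opNorm_nonneg g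
    have h4 : σ ≤ ‖g‖ * √σ := h3.trans (by gcongr)
    have h5 := Real.sq_sqrt h0
    have h6 := Real.sqrt_nonneg σ
    nlinarith [sq_nonneg (‖g‖ - √σ)]
  have := hs.tendsto_atTop_zero.sqrt
  simp only [Real.sqrt_sq_eq_abs, Real.sqrt_zero] at this
  exact tendsto_zero_iff_abs_tendsto_zero _ |>.mpr this

theorem not_auc_XX : ¬ AUCRenormable XX := by
  rintro ⟨N, ⟨c, C, hc, hC, hN⟩, h⟩
  obtain ⟨δ, hδ, H⟩ := exists_of_auc (h (c / (2 * C)) (by positivity))
  have up : ∀ t, N (ev t) ≤ C := fun t =>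
    (hN _).2.trans (mul_le_of_le_one_right hC.le (norm_ev_le t))
  have main : ∀ k j : ℕ, j ≤ k → ∃ t : Nd, t.length = j + 1 ∧ top t = k ∧
      (1 + δ / 2) ^ j * c ≤ N (ev t) := by
    intro k j
    induction j with
    | zero =>
      intro _
      refine ⟨[k], rfl, rfl, ?_⟩
      have e1 : ev [k] = J [k] := by
        ext f
        simp [jump, f.nil]
      have := one_le_norm_J (t := [k]) ⟨by simp, by simp⟩
      rw [e1]
      nlinarith [(hN (J [k])).1]
    | succ j ih =>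
      intro hj
      obtain ⟨t, h1, h2, h3⟩ := ih (by omega)
      have ht : t ≠ [] := by
        rintro rfl
        simp at h1
      have h4 : 1 ≤ (1 + δ / 2) ^ j := one_le_pow₀ (by linarith)
      obtain ⟨n, hn⟩ := grow hc hC hδ hN H (x := ev t) (by nlinarith) (up t)
        (y := fun n => J (n :: t))
        (fun n => one_le_norm_J ⟨by simp, by rw [top_cons n ht, List.length_cons]; omega⟩)
        (weak_null t)
      refine ⟨n :: t, by simp [h1], by rw [top_cons n ht, h2], ?_⟩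
      have e1 : ev (n :: t) = ev t + J (n :: t) := by
        ext f
        simp [jump]
      rw [e1, pow_succ]
      nlinarith
  obtain ⟨k, hk⟩ := pow_unbounded_of_one_lt (C / c) (show 1 < 1 + δ / 2 by linarith)
  obtain ⟨t, -, -, h3⟩ := main k k le_rfl
  rw [div_lt_iff₀ hc] at hk
  linarith [up t]

end Vale.Agent.P069
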