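import Vale.Agent.P069.Tree

/-! Projections onto lower sets of the tree, basis vectors, the key renorming estimate. -/

namespace Vale.Agent.P069

open Finset

def IsLow (A : Set Nd) : Prop := [] ∈ A ∧ ∀ s t : Nd, s <:+ t → t ∈ A → s ∈ A

open Classical in
/-- the last ancestor lying in `A` -/
noncomputable def pj (A : Set Nd) : Nd → Nd
  | [] => []
  | n :: l => if n :: l ∈ A then n :: l else pj A l

lemma pj_suffix (A : Set Nd) (b : Nd) : pj A b <:+ b := by
  induction b with
  | nil => simp [pj]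
  | cons n l ih =>
    rw [pj]
    split_ifs
    · exact List.suffix_rfl
    · exact ih.trans (List.suffix_cons n l)

lemma pj_mem {A : Set Nd} (hA : IsLow A) (b : Nd) : pj A b ∈ A := by
  induction b with
  | nil => simpa [pj] using hA.1
  | cons n l ih =>
    rw [pj]
    split_ifs with h
    · exact h
    · exact ih

lemma suffix_pj {A : Set Nd} {s b : Nd} (hs : s ∈ A) (h : s <:+ b) : s <:+ pj A b := by
  induction b with
  | nil => simpa [pj] using h
  | cons n l ih =>
    rw [pj]
    split_ifs with h'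
    · exact h
    · rcases List.suffix_cons_iff.mp h with h1 | h1
      · exact absurd (h1 ▸ hs) h'
      · exact ih h1

lemma suffix_antisymm {a b : Nd} (h1 : a <:+ b) (h2 : b <:+ a) : a = b :=
  h1.eq_of_length (le_antisymm h1.length_le h2.length_le)

lemma suffix_total {a b c : Nd} (h1 : a <:+ c) (h2 : b <:+ c) : a <:+ b ∨ b <:+ a := by
  rcases le_total a.length b.length with h | h
  · exact Or.inl (List.suffix_of_suffix_length_le h1 h2 h)
  · exact Or.inr (List.suffix_of_suffix_length_le h2 h1 h)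

lemma pj_of_mem {A : Set Nd} {b : Nd} (hb : b ∈ A) : pj A b = b :=
  suffix_antisymm (pj_suffix A b) (suffix_pj hb List.suffix_rfl)

lemma pj_mono {A : Set Nd} (hA : IsLow A) {a b : Nd} (h : a <:+ b) : pj A a <:+ pj A b :=
  suffix_pj (pj_mem hA a) ((pj_suffix A a).trans h)

lemma pj_eq_of_suffix {A : Set Nd} (hA : IsLow A) {a b : Nd} (h : a <:+ b)
    (h' : pj A b <:+ a) : pj A a = pj A b :=
  suffix_antisymm (pj_mono hA h) (suffix_pj (pj_mem hA b) h')

lemma pj_eq_of_not_mem {A : Set Nd} (hA : IsLow A) {a b : Nd} (h : a <:+ b)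
    (ha : a ∉ A) : pj A a = pj A b := by
  refine pj_eq_of_suffix hA h ?_
  rcases suffix_total h (pj_suffix A b) with h1 | h1
  · exact absurd (hA.2 _ _ h1 (pj_mem hA b)) ha
  · exact h1

open Classical in
lemma jump_comp_pj {A : Set Nd} (hA : IsLow A) (f : Nd → ℝ) (t : Nd) :
    jump (fun s => f (pj A s)) t = if t ∈ A then jump f t else 0 := by
  cases t with
  | nil => simp
  | cons n l =>
    rw [jump_cons, jump_cons]
    split_ifs with h
    · rw [pj_of_mem h, pj_of_mem (hA.2 _ _ (List.suffix_cons n l) h)]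
    · rw [pj, if_neg h, sub_self]

/-- restriction of the jumps to a lower set -/
noncomputable def res {A : Set Nd} (hA : IsLow A) (f : Y) : Y :=
  Y.mk (fun s => f (pj A s)) (by simpa [pj] using f.nil)
    (f.fin.subset fun t ht h => ht (by rw [jump_comp_pj hA]; split_ifs <;> simp [h]))
    (fun t ht => by rw [jump_comp_pj hA]; split_ifs <;> simp [f.adm t ht])

lemma res_apply {A : Set Nd} (hA : IsLow A) (f : Y) (t : Nd) : res hA f t = f (pj A t) := rfl

open Classical in
lemma jump_res {A : Set Nd} (hA : IsLow A) (f : Y) (t : Nd) :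
    jump (res hA f) t = if t ∈ A then jump f t else 0 := jump_comp_pj hA f t

lemma jump_add (f g : Y) (t : Nd) : jump (f + g : Y) t = jump f t + jump g t := by
  simp only [jump, Y.add_apply]; ring

lemma jump_sub (f g : Y) (t : Nd) : jump (f - g : Y) t = jump f t - jump g t := by
  simp only [jump, Y.sub_apply]; ring

lemma jump_smul (c : ℝ) (f : Y) (t : Nd) : jump (c • f : Y) t = c * jump f t := by
  simp only [jump, Y.smul_apply]; ring

lemma jump_zero (t : Nd) : jump (0 : Y) t = 0 := by simp [jump]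

lemma jump_sum {ι : Type} (s : Finset ι) (f : ι → Y) (t : Nd) :
    jump (∑ i ∈ s, f i : Y) t = ∑ i ∈ s, jump (f i) t := by
  classical
  induction s using Finset.induction_on with
  | empty => simpa using jump_zero t
  | insert i s hi ih => rw [Finset.sum_insert hi, Finset.sum_insert hi, jump_add, ih]

lemma res_eq_self {A : Set Nd} (hA : IsLow A) {f : Y} (h : ∀ t, t ∉ A → jump f t = 0) :
    res hA f = f := by
  refine Y.ext_jump fun t => ?_
  rw [jump_res]
  split_ifs with h1
  · rfl
  · exact (h t h1).symm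

lemma res_eq_zero {A : Set Nd} (hA : IsLow A) {f : Y} (h : ∀ t, t ∈ A → jump f t = 0) :
    res hA f = 0 := by
  refine Y.ext_jump fun t => ?_
  rw [jump_res, jump_zero]
  split_ifs with h1
  · exact h t h1
  · rfl

lemma res_add {A : Set Nd} (hA : IsLow A) (f g : Y) : res hA (f + g) = res hA f + res hA g := by
  ext t; rfl

lemma res_sub {A : Set Nd} (hA : IsLow A) (f g : Y) : res hA (f - g) = res hA f - res hA g := by
  ext t; rfl

lemma res_smul {A : Set Nd} (hA : IsLow A) (c : ℝ) (f : Y) : res hA (c • f) = c • res hA f := by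
  ext t; rfl

lemma jump_sub_res_of_mem {A : Set Nd} (hA : IsLow A) (f : Y) {t : Nd} (ht : t ∈ A) :
    jump (f - res hA f : Y) t = 0 := by
  rw [jump_sub, jump_res, if_pos ht, sub_self]

lemma jump_res_of_not_mem {A : Set Nd} (hA : IsLow A) (f : Y) {t : Nd} (ht : t ∉ A) :
    jump (res hA f : Y) t = 0 := by
  rw [jump_res, if_neg ht]

open Classical in
lemma superadd {A : Set Nd} (hA : IsLow A) (f : Y) :
    ‖res hA f‖ ^ 2 + ‖f - res hA f‖ ^ 2 ≤ ‖f‖ ^ 2 := by
  have key : ∀ (n : ℕ) (a b : Fin n → Nd), IsFam univ a b → ∀ (m : ℕ) (c d : Fin m → Nd),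
      IsFam univ c d → ∑ i, (res hA f (b i) - res hA f (a i)) ^ 2 +
        ∑ j, ((f - res hA f) (d j) - (f - res hA f) (c j)) ^ 2 ≤ ‖f‖ ^ 2 := by
    intro n a b h m c d h'
    have s1 : ∀ i, Seg (pj A (a i)) (pj A (b i)) ⊆ Seg (a i) (b i) ∩ A := by
      intro i t ht
      have htA : t ∈ A := hA.2 _ _ ht.1 (pj_mem hA _)
      exact ⟨⟨ht.1.trans (pj_suffix A _), fun h1 => ht.2 (suffix_pj htA h1)⟩, htA⟩
    set c' : Fin m → Nd := fun j => if c j ∈ A then pj A (d j) else c j with hc'
    have s2 : ∀ j, Seg (c' j) (d j) ⊆ Seg (c j) (d j) ∩ Aᶜ := by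
      intro j t ht
      by_cases hc : c j ∈ A
      · have e : c' j = pj A (d j) := if_pos hc
        rw [e] at ht
        have htA : t ∉ A := fun h1 => ht.2 (suffix_pj h1 ht.1)
        exact ⟨⟨ht.1, fun h1 => htA (hA.2 _ _ h1 hc)⟩, htA⟩
      · have e : c' j = c j := if_neg hc
        rw [e] at ht
        refine ⟨ht, fun h1 => ?_⟩
        rcases suffix_total ht.1 (h'.1 j (mem_univ _)) with h2 | h2
        · exact ht.2 h2
        · exact hc (hA.2 _ _ h2 h1)
    have f1 : IsFam univ (fun i => pj A (a i)) (fun i => pj A (b i)) :=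
      ⟨fun i hi => pj_mono hA (h.1 i hi), fun i hi j hj hij =>
        (h.2 i hi j hj hij).mono ((s1 i).trans Set.inter_subset_left)
          ((s1 j).trans Set.inter_subset_left)⟩
    have f2 : IsFam univ c' d := by
      refine ⟨fun j hj => ?_, fun i hi j hj hij =>
        (h'.2 i hi j hj hij).mono ((s2 i).trans Set.inter_subset_left)
          ((s2 j).trans Set.inter_subset_left)⟩
      by_cases hc : c j ∈ A
      · have e : c' j = pj A (d j) := if_pos hc
        rw [e]; exact pj_suffix _ _
      · have e : c' j = c j := if_neg hc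
        rw [e]; exact h'.1 j hj
    have := fam_le₂ f f1 f2 (fun i _ j _ => disjoint_compl_right.mono
      ((s1 i).trans Set.inter_subset_right) ((s2 j).trans Set.inter_subset_right))
    refine le_trans (le_of_eq ?_) this
    congr 1
    refine Finset.sum_congr rfl fun j hj => ?_
    congr 1
    simp only [Y.sub_apply, res_apply]
    by_cases hc : c j ∈ A
    · have e : c' j = pj A (d j) := if_pos hc
      rw [e, pj_of_mem hc]; ring
    · have e : c' j = c j := if_neg hc
      rw [e, pj_eq_of_not_mem hA (h'.1 j hj) hc]; ring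
  have h1 : ‖res hA f‖ ^ 2 ≤ ‖f‖ ^ 2 - ‖f - res hA f‖ ^ 2 := by
    refine norm_sq_le _ fun n a b h => ?_
    have : ‖f - res hA f‖ ^ 2 ≤ ‖f‖ ^ 2 - ∑ i, (res hA f (b i) - res hA f (a i)) ^ 2 := by
      refine norm_sq_le _ fun m c d h' => ?_
      have := key n a b h m c d h'
      linarith
    linarith
  linarith

lemma norm_res_le {A : Set Nd} (hA : IsLow A) (f : Y) : ‖res hA f‖ ≤ ‖f‖ := by
  have := superadd hA f
  exact le_of_sq_le_sq (by nlinarith [sq_nonneg ‖f - res hA f‖]) (norm_nonneg _)

lemma norm_sub_res_le {A : Set Nd} (hA : IsLow A) (f : Y) : ‖f - res hA f‖ ≤ ‖f‖ := by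
  have := superadd hA f
  exact le_of_sq_le_sq (by nlinarith [sq_nonneg ‖res hA f‖]) (norm_nonneg _)

/-- the first components -/
def topLt (K : ℕ) : Set Nd := {t | t = [] ∨ top t < K}

lemma isLow_topLt (K : ℕ) : IsLow (topLt K) := by
  refine ⟨Or.inl rfl, fun s t h ht => ?_⟩
  by_cases hs : s = []
  · exact Or.inl hs
  · rcases ht with rfl | ht
    · exact absurd (List.suffix_nil.mp h) hs
    · exact Or.inr (top_suffix h hs ▸ ht)

lemma subadd (K : ℕ) (u v : Y) (hu : ∀ t, t ∉ topLt K → jump u t = 0)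
    (hv : ∀ t, t ∈ topLt K → jump v t = 0) : ‖u + v‖ ^ 2 ≤ ‖u‖ ^ 2 + ‖v‖ ^ 2 := by
  have hA := isLow_topLt K
  have hu' : ∀ t, u t = u (pj (topLt K) t) := fun t => by
    rw [← res_apply hA, res_eq_self hA hu]
  have hv' : ∀ t, t ∈ topLt K → v t = 0 := fun t ht => by
    have := res_apply hA v t
    rw [res_eq_zero hA hv, pj_of_mem ht] at this
    exact this.symm
  refine norm_sq_le _ fun n a b h => ?_
  refine le_trans (le_of_eq ?_) (add_le_add (fam_le u h) (fam_le v h))
  rw [← Finset.sum_add_distrib]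
  refine Finset.sum_congr rfl fun i hi => ?_
  simp only [Y.add_apply]
  by_cases hb : b i ∈ topLt K
  · rw [hv' _ hb, hv' _ (hA.2 _ _ (h.1 i hi) hb)]; ring
  · have e1 : pj (topLt K) (b i) = [] := by
      by_contra h1
      rcases pj_mem hA (b i) with h2 | h2
      · exact h1 h2
      · exact hb (Or.inr (top_suffix (pj_suffix _ _) h1 ▸ h2))
    have e2 : pj (topLt K) (a i) = [] := List.suffix_nil.mp (e1 ▸ pj_mono hA (h.1 i hi))
    rw [hu' (b i), hu' (a i), e1, e2]; ring

open Classical in
/-- basis vectors -/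
noncomputable def eF (t : Nd) : Nd → ℝ := fun s => if Adm t ∧ t <:+ s then 1 else 0

open Classical in
lemma jump_eF (t s : Nd) : jump (eF t) s = if Adm t ∧ s = t then 1 else 0 := by
  by_cases ht : Adm t
  · cases s with
    | nil => simp [ht.1.symm]
    | cons n l =>
      rw [jump_cons]
      by_cases e : n :: l = t
      · subst e
        have : ¬ (n :: l) <:+ l := fun h => by
          have := h.length_le
          simp at this
        simp [eF, ht, this]
      · have e' : ¬ t = n :: l := fun h => e h.symm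
        simp [eF, ht, e, e', List.suffix_cons_iff]
  · simp [jump, eF, ht]

noncomputable def e (t : Nd) : Y :=
  Y.mk (eF t) (by
      simp only [eF, ite_eq_right_iff, List.suffix_nil]
      rintro ⟨h1, h2⟩
      exact absurd h2 h1.1)
    ((Set.finite_singleton t).subset fun s hs => by
      by_contra h
      apply hs
      rw [jump_eF, if_neg]
      exact fun h1 => h h1.2)
    (fun s hs => by
      rw [jump_eF, if_neg]
      rintro ⟨h1, rfl⟩
      exact hs h1)

open Classical in
lemma jump_e (t s : Nd) : jump (e t) s = if Adm t ∧ s = t then 1 else 0 := jump_eF t s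

lemma e_of_not_adm {t : Nd} (h : ¬ Adm t) : e t = 0 :=
  Y.ext_jump fun s => by rw [jump_e, jump_zero, if_neg fun h1 => h h1.1]

open Classical in
lemma jump_comb (S : Finset Nd) (c : Nd → ℝ) (s : Nd) :
    jump (∑ t ∈ S, c t • e t : Y) s = if Adm s ∧ s ∈ S then c s else 0 := by
  rw [jump_sum]
  simp only [jump_smul, jump_e]
  by_cases h : Adm s ∧ s ∈ S
  · rw [if_pos h, Finset.sum_eq_single s]
    · simp [h.1]
    · intro t _ hts
      simp [hts.symm]
    · intro h1
      exact absurd h.2 h1
  · rw [if_neg h]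
    refine Finset.sum_eq_zero fun t ht => ?_
    rw [if_neg, mul_zero]
    rintro ⟨h1, rfl⟩
    exact h ⟨h1, ht⟩

lemma expand (f : Y) (S : Finset Nd) (hS : ∀ t, jump f t ≠ 0 → t ∈ S) :
    f = ∑ t ∈ S, jump f t • e t := by
  refine Y.ext_jump fun s => ?_
  rw [jump_comb]
  split_ifs with h
  · rfl
  · by_contra h1
    exact h ⟨by_contra fun h2 => h1 (f.adm s h2), hS s h1⟩

lemma res_expand {F : Finset Nd} (hF : IsLow (F : Set Nd)) (f : Y) :
    res hF f = ∑ t ∈ F, jump f t • e t := by
  refine Y.ext_jump fun s => ?_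
  rw [jump_comb, jump_res]
  by_cases h : s ∈ F
  · by_cases h2 : Adm s
    · simp [h, h2]
    · simp [h, h2, f.adm s h2]
  · simp [h]

lemma norm_e_le (t : Nd) : ‖e t‖ ≤ 1 := by
  classical
  have : ‖e t‖ ^ 2 ≤ 1 ^ 2 := by
    refine norm_sq_le _ fun n a b h => ?_
    refine (fam_sum_le (e t).nil {t} (fun s hs => ?_) 1
      (fun a b => (Finset.card_filter_le _ _).trans (by simp)) h).trans ?_
    · by_contra h1
      apply hs
      rw [jump_e, if_neg]
      exact fun h2 => h1 (by simp [h2.2])
    · rw [Finset.sum_singleton, jump_e]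
      split_ifs <;> simp
  exact le_of_sq_le_sq this zero_le_one

lemma norm_sq_le_of_length (f : Y) (K : ℕ) (S : Finset Nd) (hS : ∀ t, jump f t ≠ 0 → t ∈ S)
    (hK : ∀ t ∈ S, t.length < K) : ‖f‖ ^ 2 ≤ K * ∑ t ∈ S, jump f t ^ 2 := by
  classical
  refine norm_sq_le _ fun n a b h => ?_
  refine fam_sum_le f.nil S hS K (fun a b => ?_) h
  rw [← Finset.card_range K]
  refine Finset.card_le_card_of_injOn List.length (fun t ht => ?_) fun s hs t ht hst => ?_
  · simp only [coe_filter, Set.mem_ofPred_eq] at ht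
    simpa using hK t ht.1
  · simp only [coe_filter, Set.mem_ofPred_eq] at hs ht
    exact (List.suffix_of_suffix_length_le hs.2.1 ht.2.1 hst.le).eq_of_length hst

lemma exists_low (S : Finset Nd) : ∃ F : Finset Nd, IsLow (F : Set Nd) ∧ S ⊆ F := by
  classical
  refine ⟨insert [] (S.biUnion fun t => t.tails.toFinset), ⟨by simp, ?_⟩, ?_⟩
  · intro s t h ht
    simp only [coe_insert, coe_biUnion, Set.mem_insert_iff, Set.mem_iUnion, mem_coe,
      List.mem_toFinset, List.mem_tails] at ht ⊢
    rcases ht with rfl | ⟨r, hr, ht⟩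
    · exact Or.inl (List.suffix_nil.mp h)
    · exact Or.inr ⟨r, hr, h.trans ht⟩
  · intro t ht
    simp only [mem_insert, mem_biUnion, List.mem_toFinset, List.mem_tails]
    exact Or.inr ⟨t, ht, List.suffix_rfl⟩

lemma range_finite (g : Y) : (Set.range g).Finite := by
  obtain ⟨G, hG, hS⟩ := exists_low g.supp
  have : res hG g = g := res_eq_self hG fun t ht => by
    by_contra h
    exact ht (hS (Y.mem_supp.mpr h))
  refine (G.finite_toSet.image g).subset ?_
  rintro _ ⟨t, rfl⟩
  refine ⟨pj G t, pj_mem hG t, ?_⟩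
  rw [← res_apply hG, this]

end Vale.Agent.P069
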