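import Mathlib

/-! The James tree norm on a countably branching forest of finite heights. -/

namespace Vale.Agent.P069

open Finset

abbrev Nd := List ℕ

/-- label of the first step from the root -/
def top (t : Nd) : ℕ := t.getLastD 0

lemma top_cons (n : ℕ) {l : Nd} (h : l ≠ []) : top (n :: l) = top l := by
  cases l with
  | nil => exact absurd rfl h
  | cons m l => simp [top, List.getLastD]

lemma top_suffix {a b : Nd} (h : a <:+ b) (ha : a ≠ []) : top b = top a := by
  obtain ⟨c, rfl⟩ := h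
  induction c with
  | nil => rfl
  | cons n c ih =>
    rw [List.cons_append, top_cons n (by simp [ha]), ih]

def jump (f : Nd → ℝ) (t : Nd) : ℝ := f t - f t.tail

@[simp] lemma jump_nil (f : Nd → ℝ) : jump f [] = 0 := by simp [jump]

lemma jump_cons (f : Nd → ℝ) (n : ℕ) (l : Nd) : jump f (n :: l) = f (n :: l) - f l := rfl

/-- admissible nodes -/
def Adm (t : Nd) : Prop := t ≠ [] ∧ t.length ≤ top t + 1

/-- potentials with finitely many jumps, all at admissible nodes -/
def YS : Submodule ℝ (Nd → ℝ) where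
  carrier := {f | f [] = 0 ∧ {t | jump f t ≠ 0}.Finite ∧ ∀ t, ¬ Adm t → jump f t = 0}
  add_mem' := by
    rintro f g ⟨hf0, hf1, hf2⟩ ⟨hg0, hg1, hg2⟩
    refine ⟨by simp [hf0, hg0], (hf1.union hg1).subset ?_, ?_⟩
    · intro t ht
      by_contra h
      simp only [Set.mem_union, Set.mem_ofPred_eq, not_or, not_not] at h
      apply ht
      have h1 := h.1
      have h2 := h.2
      simp only [jump, Pi.add_apply] at h1 h2 ⊢
      linarith
    · intro t ht
      have h1 := hf2 t ht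
      have h2 := hg2 t ht
      simp only [jump, Pi.add_apply] at h1 h2 ⊢
      linarith
  zero_mem' := by
    refine ⟨rfl, ?_, ?_⟩
    · simp [jump]
    · intro t _
      simp [jump]
  smul_mem' := by
    rintro c f ⟨hf0, hf1, hf2⟩
    refine ⟨by simp [hf0], hf1.subset ?_, ?_⟩
    · intro t ht h
      apply ht
      simp only [jump, Pi.smul_apply, smul_eq_mul] at h ⊢
      rw [← mul_sub, h, mul_zero]
    · intro t ht
      have h1 := hf2 t ht
      simp only [jump, Pi.smul_apply, smul_eq_mul] at h1 ⊢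
      rw [← mul_sub, h1, mul_zero]

def Seg (a b : Nd) : Set Nd := {t | t <:+ b ∧ ¬ t <:+ a}

def IsFam {ι : Type} (s : Finset ι) (a b : ι → Nd) : Prop :=
  (∀ i ∈ s, a i <:+ b i) ∧
    ∀ i ∈ s, ∀ j ∈ s, i ≠ j → Disjoint (Seg (a i) (b i)) (Seg (a j) (b j))

open Classical in
lemma expand_aux {f : Nd → ℝ} (h0 : f [] = 0) (S : Finset Nd) (hS : ∀ t, jump f t ≠ 0 → t ∈ S)
    (b : Nd) : f b = ∑ t ∈ S, if t <:+ b then jump f t else 0 := by
  induction b with
  | nil =>
    rw [h0]
    symm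
    refine Finset.sum_eq_zero fun t _ => ?_
    split_ifs with h
    · rw [List.suffix_nil.mp h]; simp
    · rfl
  | cons n l ih =>
    have h1 : f (n :: l) = f l + jump f (n :: l) := by rw [jump_cons]; ring
    have h2 : jump f (n :: l) = ∑ t ∈ S, if t = n :: l then jump f t else 0 := by
      rw [Finset.sum_ite_eq' S (n :: l) (fun t => jump f t)]
      split_ifs with h
      · rfl
      · by_contra h'
        exact h (hS _ h')
    rw [h1, ih, h2, ← Finset.sum_add_distrib]
    refine Finset.sum_congr rfl fun t _ => ?_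
    by_cases e : t = n :: l
    · subst e
      have : ¬ (n :: l) <:+ l := fun h => by
        have := h.length_le
        simp at this
      simp [this]
    · simp [e, List.suffix_cons_iff]

open Classical in
lemma incr_eq {f : Nd → ℝ} (h0 : f [] = 0) (S : Finset Nd) (hS : ∀ t, jump f t ≠ 0 → t ∈ S)
    {a b : Nd} (hab : a <:+ b) :
    f b - f a = ∑ t ∈ S.filter (fun t => t ∈ Seg a b), jump f t := by
  rw [expand_aux h0 S hS b, expand_aux h0 S hS a, ← Finset.sum_sub_distrib, Finset.sum_filter]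
  refine Finset.sum_congr rfl fun t _ => ?_
  by_cases h1 : t <:+ a
  · have h2 : t <:+ b := h1.trans hab
    simp [Seg, h1, h2]
  · by_cases h2 : t <:+ b <;> simp [Seg, h1, h2]

open Classical in
lemma fam_sum_le {f : Nd → ℝ} (h0 : f [] = 0) (S : Finset Nd) (hS : ∀ t, jump f t ≠ 0 → t ∈ S)
    (L : ℕ) (hL : ∀ a b, (S.filter (fun t => t ∈ Seg a b)).card ≤ L)
    {ι : Type} {s : Finset ι} {a b : ι → Nd} (h : IsFam s a b) :
    ∑ i ∈ s, (f (b i) - f (a i)) ^ 2 ≤ L * ∑ t ∈ S, jump f t ^ 2 := by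
  have h1 : ∀ i ∈ s, (f (b i) - f (a i)) ^ 2 ≤
      L * ∑ t ∈ S.filter (fun t => t ∈ Seg (a i) (b i)), jump f t ^ 2 := by
    intro i hi
    rw [incr_eq h0 S hS (h.1 i hi)]
    refine (sq_sum_le_card_mul_sum_sq).trans ?_
    gcongr
    exact_mod_cast hL _ _
  refine (Finset.sum_le_sum h1).trans ?_
  rw [← Finset.mul_sum]
  gcongr
  rw [← Finset.sum_biUnion]
  · refine Finset.sum_le_sum_of_subset_of_nonneg ?_ fun _ _ _ => sq_nonneg _
    intro t ht
    simp only [Finset.mem_biUnion, Finset.mem_filter] at ht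
    obtain ⟨i, _, h, _⟩ := ht
    exact h
  · intro i hi j hj hij
    have := h.2 i hi j hj hij
    simp only [Function.onFun]
    rw [Finset.disjoint_left]
    intro t h1 h2
    simp only [Finset.mem_filter] at h1 h2
    exact Set.disjoint_left.mp this h1.2 h2.2

/-- the normed space of potentials -/
def Y : Type := YS

noncomputable instance : AddCommGroup Y := inferInstanceAs (AddCommGroup YS)
noncomputable instance : Module ℝ Y := inferInstanceAs (Module ℝ YS)

def Y.val (f : Y) : Nd → ℝ := Subtype.val f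

instance : CoeFun Y (fun _ => Nd → ℝ) := ⟨Y.val⟩

lemma Y.nil (f : Y) : f [] = 0 := (Subtype.property f).1
lemma Y.fin (f : Y) : {t | jump f t ≠ 0}.Finite := (Subtype.property f).2.1
lemma Y.adm (f : Y) (t : Nd) (h : ¬ Adm t) : jump f t = 0 := (Subtype.property f).2.2 t h

@[ext] lemma Y.ext {f g : Y} (h : ∀ t, f t = g t) : f = g := Subtype.ext (funext h)

@[simp] lemma Y.add_apply (f g : Y) (t : Nd) : (f + g) t = f t + g t := rfl
@[simp] lemma Y.sub_apply (f g : Y) (t : Nd) : (f - g) t = f t - g t := rfl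
@[simp] lemma Y.neg_apply (f : Y) (t : Nd) : (-f) t = - f t := rfl
@[simp] lemma Y.zero_apply (t : Nd) : (0 : Y) t = 0 := rfl
@[simp] lemma Y.smul_apply (c : ℝ) (f : Y) (t : Nd) : (c • f) t = c * f t := rfl

def Y.mk (f : Nd → ℝ) (h0 : f [] = 0) (h1 : {t | jump f t ≠ 0}.Finite)
    (h2 : ∀ t, ¬ Adm t → jump f t = 0) : Y := (⟨f, h0, h1, h2⟩ : YS)

@[simp] lemma Y.mk_apply (f : Nd → ℝ) (h0 h1 h2) (t : Nd) : Y.mk f h0 h1 h2 t = f t := rfl

lemma Y.ext_jump {f g : Y} (h : ∀ t, jump f t = jump g t) : f = g := by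
  ext t
  induction t with
  | nil => rw [f.nil, g.nil]
  | cons n l ih =>
    have := h (n :: l)
    rw [jump_cons, jump_cons] at this
    linarith

/-- support of the jumps -/
noncomputable def Y.supp (f : Y) : Finset Nd := f.fin.toFinset

lemma Y.mem_supp {f : Y} {t : Nd} : t ∈ f.supp ↔ jump f t ≠ 0 := by simp [Y.supp]

def vals (f : Nd → ℝ) : Set ℝ :=
  {r | ∃ (n : ℕ) (a b : Fin n → Nd), IsFam univ a b ∧ r = ∑ i, (f (b i) - f (a i)) ^ 2}

lemma zero_mem_vals (f : Nd → ℝ) : (0 : ℝ) ∈ vals f :=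
  ⟨0, fun i => i.elim0, fun i => i.elim0, ⟨fun i => i.elim0, fun i => i.elim0⟩, by simp⟩

lemma bdd_vals (f : Y) : BddAbove (vals f) := by
  refine ⟨f.supp.card * ∑ t ∈ f.supp, jump f t ^ 2, ?_⟩
  rintro r ⟨n, a, b, h, rfl⟩
  classical
  exact fam_sum_le f.nil f.supp (fun t => Y.mem_supp.mpr) _
    (fun a b => by convert Finset.card_filter_le _ _) h

noncomputable def nsq (f : Y) : ℝ := sSup (vals f)

lemma nsq_nonneg (f : Y) : 0 ≤ nsq f := le_csSup (bdd_vals f) (zero_mem_vals f)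

lemma fam_le_nsq (f : Y) {ι : Type} {s : Finset ι} {a b : ι → Nd} (h : IsFam s a b) :
    ∑ i ∈ s, (f (b i) - f (a i)) ^ 2 ≤ nsq f := by
  refine le_csSup (bdd_vals f) ⟨s.card, fun k => a (s.equivFin.symm k),
    fun k => b (s.equivFin.symm k), ⟨fun k _ => h.1 _ (s.equivFin.symm k).2, ?_⟩, ?_⟩
  · intro i _ j _ hij
    refine h.2 _ (s.equivFin.symm i).2 _ (s.equivFin.symm j).2 fun e => hij ?_
    exact s.equivFin.symm.injective (Subtype.ext e)
  · rw [Equiv.sum_comp s.equivFin.symm (fun i : s => (f (b i) - f (a i)) ^ 2),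
      Finset.sum_coe_sort s (fun i => (f (b i) - f (a i)) ^ 2)]

lemma nsq_le (f : Y) {C : ℝ}
    (h : ∀ (n : ℕ) (a b : Fin n → Nd), IsFam univ a b → ∑ i, (f (b i) - f (a i)) ^ 2 ≤ C) :
    nsq f ≤ C := by
  refine csSup_le ⟨0, zero_mem_vals f⟩ ?_
  rintro r ⟨n, a, b, hf, rfl⟩
  exact h n a b hf

lemma isFam_single {a b : Nd} (h : a <:+ b) :
    IsFam (univ : Finset Unit) (fun _ => a) (fun _ => b) :=
  ⟨fun _ _ => h, fun _ _ _ _ hij => absurd rfl hij⟩

lemma sq_incr_le_nsq (f : Y) {a b : Nd} (h : a <:+ b) : (f b - f a) ^ 2 ≤ nsq f := by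
  simpa using fam_le_nsq f (isFam_single h)

lemma nsq_smul_le (c : ℝ) (f : Y) : nsq (c • f) ≤ c ^ 2 * nsq f := by
  refine nsq_le _ fun n a b h => ?_
  have := fam_le_nsq f h
  simp only [Y.smul_apply, ← mul_sub, mul_pow, ← Finset.mul_sum]
  gcongr

noncomputable def jNorm : AddGroupNorm Y where
  toFun f := √(nsq f)
  map_zero' := by
    have : nsq 0 ≤ 0 := nsq_le _ fun n a b _ => by simp
    exact Real.sqrt_eq_zero'.mpr this
  add_le' f g := by
    rw [Real.sqrt_le_left (by positivity)]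
    refine nsq_le _ fun n a b h => ?_
    have h1 := fam_le_nsq f h
    have h2 := fam_le_nsq g h
    have h3 := Real.sum_mul_le_sqrt_mul_sqrt univ (fun i => f (b i) - f (a i))
      (fun i => g (b i) - g (a i))
    have h4 : √(∑ i, (f (b i) - f (a i)) ^ 2) * √(∑ i, (g (b i) - g (a i)) ^ 2)
        ≤ √(nsq f) * √(nsq g) := by gcongr
    have h5 : ∑ i, ((f + g) (b i) - (f + g) (a i)) ^ 2 = ∑ i, (f (b i) - f (a i)) ^ 2 +
        ∑ i, (g (b i) - g (a i)) ^ 2 + 2 * ∑ i, (f (b i) - f (a i)) * (g (b i) - g (a i)) := by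
      rw [Finset.mul_sum, ← Finset.sum_add_distrib, ← Finset.sum_add_distrib]
      refine Finset.sum_congr rfl fun i _ => ?_
      simp only [Y.add_apply]
      ring
    rw [h5, add_sq, Real.sq_sqrt (nsq_nonneg f), Real.sq_sqrt (nsq_nonneg g)]
    nlinarith
  neg' f := by
    have : ∀ g : Y, nsq (-g) ≤ nsq g := fun g => by
      have := nsq_smul_le (-1) g
      simpa using this
    have h1 := this f
    have h2 := this (-f)
    rw [neg_neg] at h2
    rw [le_antisymm h1 h2]
  eq_zero_of_map_eq_zero' f hf := by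
    ext t
    have h1 := sq_incr_le_nsq f (List.nil_suffix (l := t))
    have h2 : nsq f ≤ 0 := Real.sqrt_eq_zero'.mp hf
    rw [f.nil] at h1
    have : (f t - 0) ^ 2 = 0 := le_antisymm (h1.trans h2) (sq_nonneg _)
    simpa using this

noncomputable instance : NormedAddCommGroup Y := jNorm.toNormedAddCommGroup

lemma norm_eq (f : Y) : ‖f‖ = √(nsq f) := rfl

lemma norm_sq (f : Y) : ‖f‖ ^ 2 = nsq f := by
  rw [norm_eq, Real.sq_sqrt (nsq_nonneg f)]

noncomputable instance : NormedSpace ℝ Y where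
  norm_smul_le c f := by
    rw [norm_eq, Real.sqrt_le_left (by positivity), mul_pow, norm_sq, Real.norm_eq_abs, sq_abs]
    exact nsq_smul_le c f

lemma fam_le (f : Y) {ι : Type} {s : Finset ι} {a b : ι → Nd} (h : IsFam s a b) :
    ∑ i ∈ s, (f (b i) - f (a i)) ^ 2 ≤ ‖f‖ ^ 2 := by
  rw [norm_sq]; exact fam_le_nsq f h

lemma norm_sq_le (f : Y) {C : ℝ}
    (h : ∀ (n : ℕ) (a b : Fin n → Nd), IsFam univ a b → ∑ i, (f (b i) - f (a i)) ^ 2 ≤ C) :
    ‖f‖ ^ 2 ≤ C := by
  rw [norm_sq]; exact nsq_le f h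

lemma fam_le₂ (f : Y) {ι κ : Type} {s : Finset ι} {a b : ι → Nd} (h : IsFam s a b)
    {r : Finset κ} {c d : κ → Nd} (h' : IsFam r c d)
    (hd : ∀ i ∈ s, ∀ j ∈ r, Disjoint (Seg (a i) (b i)) (Seg (c j) (d j))) :
    ∑ i ∈ s, (f (b i) - f (a i)) ^ 2 + ∑ j ∈ r, (f (d j) - f (c j)) ^ 2 ≤ ‖f‖ ^ 2 := by
  have : IsFam (s.disjSum r) (Sum.elim a c) (Sum.elim b d) := by
    refine ⟨?_, ?_⟩
    · rintro (i | i) hi
      · exact h.1 i (by simpa using hi)
      · exact h'.1 i (by simpa using hi)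
    · rintro (i | i) hi (j | j) hj hij
      · exact h.2 i (by simpa using hi) j (by simpa using hj) (by simpa using hij)
      · exact hd i (by simpa using hi) j (by simpa using hj)
      · exact (hd j (by simpa using hj) i (by simpa using hi)).symm
      · exact h'.2 i (by simpa using hi) j (by simpa using hj) (by simpa using hij)
  simpa [Finset.sum_disjSum] using fam_le f this

lemma abs_incr_le (f : Y) {a b : Nd} (h : a <:+ b) : |f b - f a| ≤ ‖f‖ := by
  have := sq_incr_le_nsq f h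
  rw [← norm_sq] at this
  exact abs_le_of_sq_le_sq' this (norm_nonneg _) |> fun h => abs_le.mpr h

lemma abs_le_norm (f : Y) (t : Nd) : |f t| ≤ ‖f‖ := by
  have := abs_incr_le f (List.nil_suffix (l := t))
  rwa [f.nil, sub_zero] at this

lemma abs_jump_le (f : Y) (t : Nd) : |jump f t| ≤ ‖f‖ :=
  abs_incr_le f (List.tail_suffix t)

lemma seg_tail {t s : Nd} (h : s ∈ Seg t.tail t) : s = t := by
  cases t with
  | nil => exact absurd h.1 h.2
  | cons n l =>
    rcases List.suffix_cons_iff.mp h.1 with h1 | h1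
    · exact h1
    · exact absurd h1 h.2

lemma sum_jump_sq_le (f : Y) (S : Finset Nd) : ∑ t ∈ S, jump f t ^ 2 ≤ ‖f‖ ^ 2 := by
  refine fam_le f (s := S) (a := fun t => t.tail) (b := fun t => t)
    ⟨fun t _ => List.tail_suffix t, fun i _ j _ hij => ?_⟩
  rw [Set.disjoint_left]
  intro s h1 h2
  exact hij ((seg_tail h1).symm.trans (seg_tail h2))

end Vale.Agent.P069
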